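import Vale.Agent.P333.Lower
import Vale.Agent.P333.Complete

namespace Vale.Agent.Results.P333.HybridGapRatio

open Vale.Agent.P333

/-- For every `ρ < 283 / 282` there is `δ > 0` such that any `ρ`-approximate superstring of the
family `H.string` decides the gap version of the Hybrid problem with parameters
`18 ν` chords, `2 ν` parity equations and at most `δ ν` wheels: the threshold `(283 - δ) ν` on its
length separates systems with an assignment violating at most `δ ν` equations from
systems all of whose assignments violate at least `(1 - δ) ν` equations. -/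
theorem result (ρ : ℝ) (hρ : ρ < 283 / 282) :
    ∃ δ : ℝ, 0 < δ ∧ ∀ (Chord Eqn Wheel : Type) [Fintype Chord] [Fintype Eqn] [Fintype Wheel]
      [DecidableEq Eqn] (H : Hybrid Chord Eqn Wheel) (ν : ℕ), 0 < ν →
      Fintype.card Chord = 18 * ν → Fintype.card Eqn = 2 * ν →
      (Fintype.card Wheel : ℝ) ≤ δ * ν →
      ∀ T : List (Letter Chord Eqn), (∀ w, H.string w <:+: T) →
        (∀ T' : List (Letter Chord Eqn), (∀ w, H.string w <:+: T') →
          (T.length : ℝ) ≤ ρ * T'.length) →
        ((∃ α, (H.unsat α : ℝ) ≤ δ * ν) → (T.length : ℝ) < (283 - δ) * ν) ∧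
        ((∀ α, (1 - δ) * ν ≤ (H.unsat α : ℝ)) → (283 - δ) * ν ≤ (T.length : ℝ)) := by
  set ρ' := max ρ 1 with hρ'
  have h1 : ρ' < 283 / 282 := max_lt hρ (by norm_num)
  have h2 : 1 ≤ ρ' := le_max_right _ _
  have hden : 0 < 7 * ρ' + 1 := by linarith
  set δ := (283 - 282 * ρ') / (2 * (7 * ρ' + 1)) with hδ
  have hδpos : 0 < δ := by
    apply div_pos
    · linarith
    · linarith
  have hδeq : δ * (7 * ρ' + 1) = (283 - 282 * ρ') / 2 := by
    rw [hδ]
    field_simp
  refine ⟨δ, hδpos, ?_⟩
  intro Chord Eqn Wheel _ _ _ _ H ν hν hC hE hW T hT happ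
  have hνr : (0 : ℝ) < ν := by exact_mod_cast hν
  constructor
  · rintro ⟨α, hα⟩
    obtain ⟨T', hT', hlen⟩ := upper_main H α
    have h3 := happ T' hT'
    have h4 : (T'.length : ℝ) ≤ 282 * ν + Fintype.card Wheel + 6 * H.unsat α := by
      have : ((T'.length : ℕ) : ℝ) ≤ ((10 * Fintype.card Chord + 51 * Fintype.card Eqn +
          Fintype.card Wheel + 6 * H.unsat α : ℕ) : ℝ) := by exact_mod_cast hlen
      rw [hC, hE] at this
      push_cast at this
      linarith
    have h5 : (T'.length : ℝ) ≤ (282 + 7 * δ) * ν := by nlinarith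
    have h6 : ρ * (T'.length : ℝ) ≤ ρ' * T'.length :=
      mul_le_mul_of_nonneg_right (le_max_left _ _) (Nat.cast_nonneg _)
    have h7 : ρ' * (T'.length : ℝ) ≤ ρ' * ((282 + 7 * δ) * ν) :=
      mul_le_mul_of_nonneg_left h5 (by linarith)
    have h8 : ρ' * (282 + 7 * δ) < 283 - δ := by nlinarith
    have h9 : ρ' * ((282 + 7 * δ) * ν) < (283 - δ) * ν := by
      rw [← mul_assoc]
      exact mul_lt_mul_of_pos_right h8 hνr
    linarith
  · intro hall
    obtain ⟨α, hα⟩ := lower_main H T hT
    have h3 := hall α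
    have h4 : (282 : ℝ) * ν + H.unsat α ≤ T.length := by
      have : ((10 * Fintype.card Chord + 51 * Fintype.card Eqn + H.unsat α : ℕ) : ℝ) ≤
          ((T.length : ℕ) : ℝ) := by exact_mod_cast hα
      rw [hC, hE] at this
      push_cast at this
      linarith
    nlinarith

end Vale.Agent.Results.P333.HybridGapRatio
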