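import Vale.Agent.P333.Lower
import Vale.Agent.P333.Complete

namespace Vale.Agent.Results.P333.HybridReduction

open Vale.Agent.P333

/-- A gap-preserving reduction from the Hybrid problem to shortest common superstring: every
superstring of the family `H.string` yields an assignment violating few equations, and every
assignment yields a short superstring. -/
theorem result {Chord Eqn Wheel : Type} [Fintype Chord] [Fintype Eqn] [Fintype Wheel]
    [DecidableEq Eqn] (H : Hybrid Chord Eqn Wheel) :
    (∀ T : List (Letter Chord Eqn), (∀ w, H.string w <:+: T) →
      ∃ α, 10 * Fintype.card Chord + 51 * Fintype.card Eqn + H.unsat α ≤ T.length) ∧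
    (∀ α, ∃ T : List (Letter Chord Eqn), (∀ w, H.string w <:+: T) ∧
      T.length ≤ 10 * Fintype.card Chord + 51 * Fintype.card Eqn + Fintype.card Wheel +
        6 * H.unsat α) :=
  ⟨fun T hT => lower_main H T hT, fun α => upper_main H α⟩

end Vale.Agent.Results.P333.HybridReduction
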