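import Vale.Agent.Lib.P333G.Concrete

/-!
# The greedy superstring conjecture when no overlap is periodic in a strong sense

Suppose there are no strings `x`, `y` among the strings left after the substring-removal phase
(`x = y` allowed) with a proper overlap of length `k` of `x` onto `y` such that `y` has a period `d`
with `0 < d < k`, `|x| - k ≤ d` and `|y| - k ≤ d`. Then every run of the greedy algorithm outputs a
string of length at most twice the length of any common superstring.

This covers all instances of unbordered strings and all instances in which each proper overlap of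
`x` onto `y` has length at most half of the longer of the two strings.
-/

namespace Vale.Agent.Results.P333.NoShortPeriodGreedy

open Vale.Agent.Lib.P333G

theorem result {α : Type*} [DecidableEq α] (S : Finset (List α))
    (hS : ∀ x ∈ reduce S, ∀ y ∈ reduce S, ∀ k d : ℕ, k < x.length → k < y.length →
      IsOverlap x y k → 0 < d → d < k → x.length - k ≤ d → y.length - k ≤ d →
      ¬ HasPeriod y d)
    {G : List α} (hG : GreedyRun (reduce S) G)
    {T : List α} (hT : ∀ s ∈ S, s <:+: T) : G.length ≤ 2 * T.length := by
  have hsf : SF (reduce S) := by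
    intro s hs t ht hst
    exact (Finset.mem_filter.mp hs).2 t (Finset.mem_filter.mp ht).1 hst
  obtain ⟨st, hL⟩ := layout_of_run hG hsf
  have hex : ∀ s ∈ reduce S, ∃ p, At T s p := by
    intro s hs
    obtain ⟨A, B, h⟩ := hT s (Finset.mem_filter.mp hs).1
    exact ⟨A.length, h ▸ at_of_append A s B⟩
  choose! tt htt using hex
  refine Setup.main_np (D := ⟨reduce S, G, T, st, tt, hsf, hL, htt⟩) ?_
  intro u w hcp
  by_contra hcon
  have hcl := (Setup.cp_closed hcp).1
  obtain ⟨h1, h2, h3, h4, h5⟩ := Setup.hasPeriod_of_cp hcp.1 hcl (by omega)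
  have hl := hcp.1.lenlt
  have hlt := hcp.1.lt
  have hu2 := ((Setup.mem_O _).mp hcp.1.hu).2
  have e3 : Setup.om u w = u.1.length - u.2 + w.2 := rfl
  exact hS u.1 ((Setup.mem_O _).mp hcp.1.hu).1 w.1 ((Setup.mem_O _).mp hcp.1.hw).1 _ _
    (by omega) (by omega) (Setup.overlap_of_comp hcp.1) h2 h3 h4 h5 h1

end Vale.Agent.Results.P333.NoShortPeriodGreedy
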