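import Vale.Agent.Results.P333.GreedyOverlapCenters
import Vale.Agent.Results.P333.NoShortPeriodGreedy
import Vale.Agent.Results.P333.HybridReduction
import Vale.Agent.Results.P333.HybridGapRatio

/-!
# P333: the proved upper bounds for greedy and the lower bound for the approximation ratio, together

(1) `|G| ≤ 2 |T| + c(G)` for every greedy output and every superstring, `c(G)` the number of centers
of overlaps of `G`. (2) `|G| ≤ 2 |T|` when no overlap is strongly periodic. (3) The gap-preserving
reduction from the Hybrid problem. (4) The resulting gap statement for every ratio below `283/282`.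
-/

universe u

open Vale.Agent.Lib.P333G Vale.Agent.P333 in
open Classical in
/-- The conjunction of `GreedyOverlapCenters.result`, `NoShortPeriodGreedy.result`,
`HybridReduction.result` and `HybridGapRatio.result`. -/
theorem Vale.Agent.Results.P333.A0Conj.result :
    (∀ (α : Type u) [DecidableEq α] (S : Finset (List α)) (G : List α),
      GreedyRun (reduce S) G → ∀ T : List α, (∀ s ∈ S, s <:+: T) →
      G.length ≤ 2 * T.length + ((Finset.range G.length).filter
        (Vale.Agent.Results.P333.GreedyOverlapCenters.OverlapCenter G)).card) ∧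
    (∀ (α : Type u) [DecidableEq α] (S : Finset (List α)),
      (∀ x ∈ reduce S, ∀ y ∈ reduce S, ∀ k d : ℕ, k < x.length → k < y.length →
        IsOverlap x y k → 0 < d → d < k → x.length - k ≤ d → y.length - k ≤ d →
        ¬ HasPeriod y d) →
      ∀ G : List α, GreedyRun (reduce S) G → ∀ T : List α, (∀ s ∈ S, s <:+: T) →
      G.length ≤ 2 * T.length) ∧
    (∀ (Chord Eqn Wheel : Type) [Fintype Chord] [Fintype Eqn] [Fintype Wheel]
      [DecidableEq Eqn] (H : Hybrid Chord Eqn Wheel),
      (∀ T : List (Letter Chord Eqn), (∀ w, H.string w <:+: T) →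
        ∃ α, 10 * Fintype.card Chord + 51 * Fintype.card Eqn + H.unsat α ≤ T.length) ∧
      (∀ α, ∃ T : List (Letter Chord Eqn), (∀ w, H.string w <:+: T) ∧
        T.length ≤ 10 * Fintype.card Chord + 51 * Fintype.card Eqn + Fintype.card Wheel +
          6 * H.unsat α)) ∧
    (∀ ρ : ℝ, ρ < 283 / 282 →
      ∃ δ : ℝ, 0 < δ ∧ ∀ (Chord Eqn Wheel : Type) [Fintype Chord] [Fintype Eqn] [Fintype Wheel]
        [DecidableEq Eqn] (H : Hybrid Chord Eqn Wheel) (ν : ℕ), 0 < ν →
        Fintype.card Chord = 18 * ν → Fintype.card Eqn = 2 * ν →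
        (Fintype.card Wheel : ℝ) ≤ δ * ν →
        ∀ T : List (Letter Chord Eqn), (∀ w, H.string w <:+: T) →
          (∀ T' : List (Letter Chord Eqn), (∀ w, H.string w <:+: T') →
            (T.length : ℝ) ≤ ρ * T'.length) →
          ((∃ α, (H.unsat α : ℝ) ≤ δ * ν) → (T.length : ℝ) < (283 - δ) * ν) ∧
          ((∀ α, (1 - δ) * ν ≤ (H.unsat α : ℝ)) → (283 - δ) * ν ≤ (T.length : ℝ))) :=
  ⟨fun _ _ S _ hG _ hT => Vale.Agent.Results.P333.GreedyOverlapCenters.result S hG hT,
   fun _ _ S hS _ hG _ hT => Vale.Agent.Results.P333.NoShortPeriodGreedy.result S hS hG hT,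
   fun _ _ _ _ _ _ _ H => Vale.Agent.Results.P333.HybridReduction.result H,
   Vale.Agent.Results.P333.HybridGapRatio.result⟩
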