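import Vale.Agent.Lib.P333G.Robust

/-!
# The greedy superstring bound for every instance, with an error term from overlaps in the output

For every family of strings, every greedy output `G` and every common superstring `T`,
`|G| ≤ 2 |T| + c(G)`, where `c(G)` counts the positions of `G` that are centers of overlaps: a
position `p` is such a center if, for some `d > 0`, the factor of `G` from `p - d` to `p + d` has
length `2 d + 1` and period `d` (a factor of the shape `a x a x a`, centered at the middle `a`).
So `|G| ≤ 2 OPT` whenever `G` contains no such factor.
-/

namespace Vale.Agent.Results.P333.GreedyOverlapCenters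

open Vale.Agent.Lib.P333G

/-- `p` is the center of an overlap of `G`: for some `d > 0` the factor of `G` at positions
`p - d, ..., p + d` has period `d`, that is, it has the form `a x a x a` with `|a x| = d`. -/
def OverlapCenter {α : Type*} (G : List α) (p : ℕ) : Prop :=
  ∃ d, 0 < d ∧ d ≤ p ∧ p + d < G.length ∧ ∀ i, i ≤ d → G[p - d + i]? = G[p + i]?

open Classical in
theorem result {α : Type*} [DecidableEq α] (S : Finset (List α))
    {G : List α} (hG : GreedyRun (reduce S) G)
    {T : List α} (hT : ∀ s ∈ S, s <:+: T) :
    G.length ≤ 2 * T.length + ((Finset.range G.length).filter (OverlapCenter G)).card := by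
  have hsf : SF (reduce S) := by
    intro s hs t ht hst
    exact (Finset.mem_filter.mp hs).2 t (Finset.mem_filter.mp ht).1 hst
  obtain ⟨st, hL⟩ := layout_of_run hG hsf
  have hex : ∀ s ∈ reduce S, ∃ p, At T s p := by
    intro s hs
    obtain ⟨A, B, h⟩ := hT s (Finset.mem_filter.mp hs).1
    exact ⟨A.length, h ▸ at_of_append A s B⟩
  choose! tt htt using hex
  let D : Setup α := ⟨reduce S, G, T, st, tt, hsf, hL, htt⟩
  have h1 : G.length ≤ 2 * T.length +
      ((Finset.range G.length).filter fun p => D.Yp p).card := Setup.general (D := D)
  have h2 : ((Finset.range G.length).filter fun p => D.Yp p).card ≤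
      ((Finset.range G.length).filter (OverlapCenter G)).card := by
    refine Finset.card_le_card ?_
    intro p hp
    obtain ⟨hp1, hp2⟩ := Finset.mem_filter.mp hp
    exact Finset.mem_filter.mpr ⟨hp1, Setup.center hp2⟩
  omega

end Vale.Agent.Results.P333.GreedyOverlapCenters
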