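import Vale.Agent.Lib.P333G.Concrete

/-!
# The greedy superstring conjecture for unbordered strings

If, after the substring-removal phase of the greedy algorithm, no remaining string has a border
(a nonempty proper prefix that is also a suffix), then every run of the greedy algorithm, with any
resolution of ties, outputs a string of length at most twice the length of any common superstring.
-/

namespace Vale.Agent.Results.P333.UnborderedGreedy

open Vale.Agent.Lib.P333G

theorem result {α : Type*} [DecidableEq α] (S : Finset (List α))
    (hU : ∀ s ∈ reduce S, Unbordered s) {G : List α} (hG : GreedyRun (reduce S) G)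
    {T : List α} (hT : ∀ s ∈ S, s <:+: T) : G.length ≤ 2 * T.length := by
  have hsf : SF (reduce S) := by
    intro s hs t ht hst
    exact (Finset.mem_filter.mp hs).2 t (Finset.mem_filter.mp ht).1 hst
  obtain ⟨st, hL⟩ := layout_of_run hG hsf
  have hex : ∀ s ∈ reduce S, ∃ p, At T s p := by
    intro s hs
    obtain ⟨A, B, h⟩ := hT s (Finset.mem_filter.mp hs).1
    exact ⟨A.length, h ▸ at_of_append A s B⟩
  choose! tt htt using hex
  exact Setup.main (D := ⟨reduce S, G, T, st, tt, hsf, hL, htt⟩) hU

end Vale.Agent.Results.P333.UnborderedGreedy
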